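import Vale.Agent.P076.R2.H831V.Spec2

/-! # P076, row Z2: anisotropic Sobolev spaces, the conclusion for the data -/

open MeasureTheory Complex FourierTransform Filter Topology Set
open scoped ENNReal NNReal

namespace Vale.Agent.P076.R2.H831V

open Vale.Agent.P076 Vale.Agent.P076.H791 Vale.Agent.P076.R2 Vale.Agent.P076.R2.H45
open Vale.Agent.P076.R2.H831

theorem stAniF {n : ℕ} (hn : 1 ≤ n) (h : StAni n) : StAniF n := by
  intro e ε he hε f g hfg hi
  have h0 : ∀ ξ : Fin n → ℝ, 0 ≤ |∑ i, ξ i * e i| ^ (1 / 2 + ε) +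
      nrm (ξ - (∑ i, ξ i * e i) • e) ^ (1 + ε) := fun ξ =>
    add_nonneg (Real.rpow_nonneg (abs_nonneg _) _)
      (Real.rpow_nonneg (by unfold nrm; exact Real.sqrt_nonneg _) _)
  refine strong_of_MP (fun ξ : Fin n → ℝ => ENNReal.ofReal
    (1 + |∑ i, ξ i * e i| ^ (1 / 2 + ε) + nrm (ξ - (∑ i, ξ i * e i) • e) ^ (1 + ε))) ?_
    (fun ξ => ?_) (h e ε he hε) hfg ?_
  · unfold nrm
    fun_prop
  · rw [← ENNReal.ofReal_one]
    refine ENNReal.ofReal_le_ofReal ?_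
    have := h0 ξ
    linarith
  · have h1 : Integrable fun ξ => ‖g ξ‖ ^ 2 := (memLp_two_iff_integrable_sq_norm hfg.2.1.1).1 hfg.2.1
    have h2 := (h1.add hi).lintegral_lt_top
    refine lt_of_le_of_lt (le_of_eq (lintegral_congr fun ξ => ?_)) h2
    rw [← ofReal_norm, ← ENNReal.ofReal_pow (norm_nonneg _), ← ENNReal.ofReal_mul]
    · congr 1
      show _ = ‖g ξ‖ ^ 2 + (|∑ i, ξ i * e i| ^ (1 / 2 + ε) +
        nrm (ξ - (∑ i, ξ i * e i) • e) ^ (1 + ε)) * ‖g ξ‖ ^ 2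
      ring
    · have := h0 ξ
      linarith

end Vale.Agent.P076.R2.H831V
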